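import Mathlib

/-!
# P045: Ryser's conjecture for locally sparse hypergraphs

If `H` is an `r`-partite `r`-uniform hypergraph in which every edge meets at most `2 r - 4` other
edges, then `τ(H) ≤ (r - 1) ν(H)`.  In particular this holds for `r ≥ 4` when every vertex lies in
at most two edges.
-/

namespace Vale.Agent.Results.P045.LocallySparse

open Finset

variable {V : Type*} [DecidableEq V]

/-- `E` is `r`-partite `r`-uniform with parts given by `part`: each edge has exactly one vertex in
each part. -/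
def IsPartite (r : ℕ) (part : V → Fin r) (E : Finset (Finset V)) : Prop :=
  ∀ e ∈ E, ∀ i : Fin r, ∃! v, v ∈ e ∧ part v = i

/-- `C` is a vertex cover of `E`. -/
def IsCover (E : Finset (Finset V)) (C : Finset V) : Prop := ∀ e ∈ E, (e ∩ C).Nonempty

/-- `M` is a matching of `E`: a set of pairwise disjoint edges. -/
def IsMatching (E M : Finset (Finset V)) : Prop :=
  M ⊆ E ∧ ∀ e ∈ M, ∀ f ∈ M, e ≠ f → Disjoint e f

/-- the covering number -/
noncomputable def tau (E : Finset (Finset V)) : ℕ := sInf {k | ∃ C, IsCover E C ∧ C.card = k}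

/-- the matching number -/
noncomputable def nu (E : Finset (Finset V)) : ℕ := sSup {k | ∃ M, IsMatching E M ∧ M.card = k}

/-- the edges of `E` other than `e` that meet `e` -/
def meets (E : Finset (Finset V)) (e : Finset V) : Finset (Finset V) :=
  E.filter (fun f => f ≠ e ∧ ¬ Disjoint e f)

theorem tau_le {E : Finset (Finset V)} {C : Finset V} (h : IsCover E C) : tau E ≤ C.card :=
  Nat.sInf_le ⟨C, h, rfl⟩

omit [DecidableEq V] in
theorem le_nu {E M : Finset (Finset V)} (h : IsMatching E M) : M.card ≤ nu E := by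
  apply le_csSup
  · refine ⟨E.card, ?_⟩
    rintro k ⟨M', hM', rfl⟩
    exact card_le_card hM'.1
  · exact ⟨M, h, rfl⟩

/-- pairing lemma: a cover `C` and a matching `U` with `2 |C| ≤ |E| + |U|` -/
theorem pairing : ∀ (m : ℕ) (E : Finset (Finset V)), E.card = m → (∀ e ∈ E, e.Nonempty) →
    ∃ C U, IsCover E C ∧ IsMatching E U ∧ 2 * C.card ≤ E.card + U.card := by
  intro m
  induction m using Nat.strong_induction_on with
  | _ m ih =>
    intro E hm hne
    by_cases hdis : ∀ e ∈ E, ∀ f ∈ E, e ≠ f → Disjoint e f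
    · -- all edges pairwise disjoint
      refine ⟨E.attach.image (fun e => (hne e.1 e.2).choose), E, ?_, ⟨Subset.refl _, hdis⟩, ?_⟩
      · intro e he
        refine ⟨(hne e he).choose, mem_inter.2 ⟨(hne e he).choose_spec, ?_⟩⟩
        exact mem_image.2 ⟨⟨e, he⟩, mem_attach _ _, rfl⟩
      · have := card_image_le (s := E.attach) (f := fun e => (hne e.1 e.2).choose)
        rw [card_attach] at this
        omega
    · push Not at hdis
      obtain ⟨e, he, f, hf, hef, hnd⟩ := hdis
      obtain ⟨v, hve, hvf⟩ := not_disjoint_iff.1 hnd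
      have hf' : f ∈ E.erase e := mem_erase.2 ⟨fun h => hef h.symm, hf⟩
      have hc1 : (E.erase e).card + 1 = E.card := card_erase_add_one he
      have hc2 : ((E.erase e).erase f).card + 1 = (E.erase e).card := card_erase_add_one hf'
      obtain ⟨C, U, hC, hU, hcard⟩ := ih ((E.erase e).erase f).card (by omega) ((E.erase e).erase f) rfl
        (fun x hx => hne x (mem_of_mem_erase (mem_of_mem_erase hx)))
      refine ⟨insert v C, U, ?_, ⟨hU.1.trans ((erase_subset _ _).trans (erase_subset _ _)), hU.2⟩, ?_⟩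
      · intro x hx
        by_cases hxe : x = e
        · subst hxe; exact ⟨v, mem_inter.2 ⟨hve, mem_insert_self _ _⟩⟩
        by_cases hxf : x = f
        · subst hxf; exact ⟨v, mem_inter.2 ⟨hvf, mem_insert_self _ _⟩⟩
        obtain ⟨w, hw⟩ := hC x (mem_erase.2 ⟨hxf, mem_erase.2 ⟨hxe, hx⟩⟩)
        exact ⟨w, mem_inter.2 ⟨(mem_inter.1 hw).1, mem_insert_of_mem (mem_inter.1 hw).2⟩⟩
      · have := card_insert_le v C
        omega

/-- greedy lemma: if every edge meets at most `t` others, then `|E| ≤ (t + 1) ν` -/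
theorem greedy (E : Finset (Finset V)) (t : ℕ) (ht : ∀ e ∈ E, (meets E e).card ≤ t) :
    E.card ≤ (t + 1) * nu E := by
  classical
  -- a matching of maximum size
  have hne : (E.powerset.filter (fun M => IsMatching E M)).Nonempty :=
    ⟨∅, mem_filter.2 ⟨empty_mem_powerset _, empty_subset _, by simp⟩⟩
  obtain ⟨M, hM, hmax⟩ := exists_max_image _ (fun M => M.card) hne
  have hMm : IsMatching E M := (mem_filter.1 hM).2
  have hcov : E ⊆ M.biUnion (fun d => insert d (meets E d)) := by
    intro e he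
    by_contra hcon
    have hall : ∀ d ∈ M, e ≠ d ∧ Disjoint d e := by
      intro d hd
      have h1 : e ∉ insert d (meets E d) := fun h => hcon (mem_biUnion.2 ⟨d, hd, h⟩)
      rw [mem_insert, not_or] at h1
      refine ⟨h1.1, ?_⟩
      by_contra hnd
      exact h1.2 (mem_filter.2 ⟨he, h1.1, hnd⟩)
    have heM : e ∉ M := fun h => (hall e h).1 rfl
    have hnew : IsMatching E (insert e M) := by
      refine ⟨insert_subset he hMm.1, ?_⟩
      intro a ha b hb hab
      rcases mem_insert.1 ha with rfl | ha'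
      · rcases mem_insert.1 hb with rfl | hb'
        · exact absurd rfl hab
        · exact (hall b hb').2.symm
      · rcases mem_insert.1 hb with rfl | hb'
        · exact (hall a ha').2
        · exact hMm.2 a ha' b hb' hab
    have := hmax (insert e M) (mem_filter.2 ⟨mem_powerset.2 hnew.1, hnew⟩)
    rw [card_insert_of_notMem heM] at this
    omega
  calc E.card ≤ (M.biUnion (fun d => insert d (meets E d))).card := card_le_card hcov
    _ ≤ ∑ d ∈ M, (insert d (meets E d)).card := card_biUnion_le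
    _ ≤ ∑ _d ∈ M, (t + 1) := by
        apply sum_le_sum
        intro d hd
        exact (card_insert_le _ _).trans (Nat.succ_le_succ (ht d (hMm.1 hd)))
    _ = (t + 1) * M.card := by rw [sum_const, smul_eq_mul, mul_comm]
    _ ≤ (t + 1) * nu E := Nat.mul_le_mul_left _ (le_nu hMm)

theorem two_tau_le (E : Finset (Finset V)) (t : ℕ) (hne : ∀ e ∈ E, e.Nonempty)
    (ht : ∀ e ∈ E, (meets E e).card ≤ t) : 2 * tau E ≤ (t + 2) * nu E := by
  obtain ⟨C, U, hC, hU, hcard⟩ := pairing E.card E rfl hne
  have h1 := tau_le hC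
  have h2 := le_nu hU
  have h3 := greedy E t ht
  nlinarith

/-- `nu` is monotone -/
theorem nu_mono {E' E : Finset (Finset V)} (h : E' ⊆ E) : nu E' ≤ nu E := by
  apply csSup_le
  · exact ⟨0, ∅, ⟨empty_subset _, by simp⟩, rfl⟩
  · rintro k ⟨M, hM, rfl⟩
    exact le_nu ⟨hM.1.trans h, hM.2⟩

/-- triple lemma: remove stars of three edges first, then pair -/
theorem tripling : ∀ (m : ℕ) (E : Finset (Finset V)), E.card = m → (∀ e ∈ E, e.Nonempty) →
    ∃ C E' U, IsCover E C ∧ E' ⊆ E ∧ (∀ v : V, (E'.filter (fun e => v ∈ e)).card ≤ 2) ∧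
      IsMatching E' U ∧ 6 * C.card ≤ 2 * E.card + E'.card + 3 * U.card := by
  intro m
  induction m using Nat.strong_induction_on with
  | _ m ih =>
    intro E hm hne
    by_cases hdeg : ∀ v : V, (E.filter (fun e => v ∈ e)).card ≤ 2
    · obtain ⟨C, U, hC, hU, hcard⟩ := pairing E.card E rfl hne
      exact ⟨C, E, U, hC, Subset.refl _, hdeg, hU, by omega⟩
    · push Not at hdeg
      obtain ⟨v, hv⟩ := hdeg
      obtain ⟨T, hT, hT3⟩ := exists_subset_card_eq (s := E.filter (fun e => v ∈ e)) (n := 3) (by omega)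
      have hTE : T ⊆ E := hT.trans (filter_subset _ _)
      have hc : (E \ T).card + 3 = E.card := by
        rw [card_sdiff_of_subset hTE, hT3]
        have := card_le_card hTE
        omega
      obtain ⟨C, E', U, hC, hE', hd, hU, hcard⟩ := ih (E \ T).card (by omega) (E \ T) rfl
        (fun x hx => hne x (mem_sdiff.1 hx).1)
      refine ⟨insert v C, E', U, ?_, hE'.trans sdiff_subset, hd, hU, ?_⟩
      · intro x hx
        by_cases hxT : x ∈ T
        · exact ⟨v, mem_inter.2 ⟨(mem_filter.1 (hT hxT)).2, mem_insert_self _ _⟩⟩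
        · obtain ⟨w, hw⟩ := hC x (mem_sdiff.2 ⟨hx, hxT⟩)
          exact ⟨w, mem_inter.2 ⟨(mem_inter.1 hw).1, mem_insert_of_mem (mem_inter.1 hw).2⟩⟩
      · have := card_insert_le v C
        omega

omit [DecidableEq V] in
theorem partite_nonempty {r : ℕ} (hr : 1 ≤ r) {part : V → Fin r} {E : Finset (Finset V)}
    (hP : IsPartite r part E) : ∀ e ∈ E, e.Nonempty := by
  intro e he
  obtain ⟨v, hv, -⟩ := hP e he ⟨0, hr⟩
  exact ⟨v, hv.1⟩

theorem partite_card {r : ℕ} {part : V → Fin r} {E : Finset (Finset V)}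
    (hP : IsPartite r part E) : ∀ e ∈ E, e.card = r := by
  intro e he
  have hbij : Set.BijOn part (e : Set V) (Set.univ : Set (Fin r)) := by
    refine ⟨fun _ _ => Set.mem_univ _, ?_, ?_⟩
    · intro a ha b hb hab
      obtain ⟨v, -, huniq⟩ := hP e he (part a)
      rw [huniq a ⟨ha, rfl⟩, huniq b ⟨hb, hab.symm⟩]
    · intro i _
      obtain ⟨v, hv, -⟩ := hP e he i
      exact ⟨v, hv.1, hv.2⟩
  have h1 : (e.image part) = univ := by
    ext i
    simp only [mem_image, mem_univ, iff_true]
    obtain ⟨v, hv, hvi⟩ := hbij.surjOn (Set.mem_univ i)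
    exact ⟨v, hv, hvi⟩
  have h2 : (e.image part).card = e.card := card_image_of_injOn hbij.injOn
  rw [← h2, h1, card_univ, Fintype.card_fin]

/-- if every vertex lies in at most `D + 1` edges, every edge meets at most `r D` other edges -/
theorem meets_card_le {r D : ℕ} {part : V → Fin r} {E : Finset (Finset V)}
    (hP : IsPartite r part E) (hdeg : ∀ v : V, (E.filter (fun e => v ∈ e)).card ≤ D + 1) :
    ∀ e ∈ E, (meets E e).card ≤ r * D := by
  intro e he
  have hsub : meets E e ⊆ e.biUnion (fun v => (E.filter (fun x => v ∈ x)).erase e) := by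
    intro f hf
    obtain ⟨hfE, hfe, hnd⟩ := mem_filter.1 hf
    obtain ⟨v, hve, hvf⟩ := not_disjoint_iff.1 hnd
    exact mem_biUnion.2 ⟨v, hve, mem_erase.2 ⟨hfe, mem_filter.2 ⟨hfE, hvf⟩⟩⟩
  calc (meets E e).card ≤ (e.biUnion (fun v => (E.filter (fun x => v ∈ x)).erase e)).card :=
        card_le_card hsub
    _ ≤ ∑ v ∈ e, ((E.filter (fun x => v ∈ x)).erase e).card := card_biUnion_le
    _ ≤ ∑ _v ∈ e, D := by
        apply sum_le_sum
        intro v hv
        have hmem : e ∈ E.filter (fun x => v ∈ x) := mem_filter.2 ⟨he, hv⟩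
        rw [card_erase_of_mem hmem]
        have := hdeg v
        omega
    _ = r * D := by rw [sum_const, smul_eq_mul, partite_card hP e he]

theorem six_tau_le {r : ℕ} (hr : 1 ≤ r) {part : V → Fin r} {E : Finset (Finset V)}
    (hP : IsPartite r part E) (hdeg : ∀ v : V, (E.filter (fun e => v ∈ e)).card ≤ 3) :
    6 * tau E ≤ (5 * r + 6) * nu E := by
  obtain ⟨C, E', U, hC, hE', hd, hU, hcard⟩ := tripling E.card E rfl (partite_nonempty hr hP)
  have hP' : IsPartite r part E' := fun e he => hP e (hE' he)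
  have h1 := tau_le hC
  have h2 : U.card ≤ nu E := (le_nu hU).trans (nu_mono hE')
  have h3 : E.card ≤ (r * 2 + 1) * nu E := greedy E (r * 2) (meets_card_le hP hdeg)
  have h4 : E'.card ≤ (r * 1 + 1) * nu E :=
    (greedy E' (r * 1) (meets_card_le hP' hd)).trans (Nat.mul_le_mul_left _ (nu_mono hE'))
  nlinarith

theorem result :
    (∀ (V : Type) [DecidableEq V] (r : ℕ) (part : V → Fin r) (E : Finset (Finset V)),
      2 ≤ r → IsPartite r part E → (∀ e ∈ E, (meets E e).card ≤ 2 * r - 4) →
      tau E ≤ (r - 1) * nu E) ∧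
    (∀ (V : Type) [DecidableEq V] (r : ℕ) (part : V → Fin r) (E : Finset (Finset V)),
      4 ≤ r → IsPartite r part E → (∀ v : V, (E.filter (fun e => v ∈ e)).card ≤ 2) →
      tau E ≤ (r - 1) * nu E) ∧
    (∀ (V : Type) [DecidableEq V] (r : ℕ) (part : V → Fin r) (E : Finset (Finset V)),
      12 ≤ r → IsPartite r part E → (∀ v : V, (E.filter (fun e => v ∈ e)).card ≤ 3) →
      tau E ≤ (r - 1) * nu E) ∧
    (∀ (V : Type) [DecidableEq V] (r t : ℕ) (part : V → Fin r) (E : Finset (Finset V)),
      1 ≤ r → IsPartite r part E → (∀ e ∈ E, (meets E e).card ≤ t) →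
      2 * tau E ≤ (t + 2) * nu E) ∧
    (∀ (V : Type) [DecidableEq V] (r : ℕ) (part : V → Fin r) (E : Finset (Finset V)),
      1 ≤ r → IsPartite r part E → (∀ v : V, (E.filter (fun e => v ∈ e)).card ≤ 3) →
      6 * tau E ≤ (5 * r + 6) * nu E) := by
  have h4 : ∀ (V : Type) [DecidableEq V] (r t : ℕ) (part : V → Fin r) (E : Finset (Finset V)),
      1 ≤ r → IsPartite r part E → (∀ e ∈ E, (meets E e).card ≤ t) →
      2 * tau E ≤ (t + 2) * nu E := by
    intro V _ r t part E hr hP ht
    exact two_tau_le E t (partite_nonempty hr hP) ht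
  have h1 : ∀ (V : Type) [DecidableEq V] (r : ℕ) (part : V → Fin r) (E : Finset (Finset V)),
      2 ≤ r → IsPartite r part E → (∀ e ∈ E, (meets E e).card ≤ 2 * r - 4) →
      tau E ≤ (r - 1) * nu E := by
    intro V _ r part E hr hP ht
    have h := h4 V r (2 * r - 4) part E (by omega) hP ht
    obtain ⟨s, rfl⟩ : ∃ s, r = s + 2 := ⟨r - 2, by omega⟩
    have e1 : 2 * (s + 2) - 4 + 2 = 2 * (s + 1) := by omega
    have e2 : s + 2 - 1 = s + 1 := by omega
    rw [e1, mul_assoc] at h
    rw [e2]
    omega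
  refine ⟨h1, ?_, ?_, h4, ?_⟩
  · intro V _ r part E hr hP hdeg
    apply h1 V r part E (by omega) hP
    intro e he
    have := meets_card_le (D := 1) hP hdeg e he
    omega
  · intro V _ r part E hr hP hdeg
    have h := six_tau_le (by omega) hP hdeg
    obtain ⟨s, rfl⟩ : ∃ s, r = s + 12 := ⟨r - 12, by omega⟩
    have e2 : s + 12 - 1 = s + 11 := by omega
    rw [e2]
    nlinarith
  · intro V _ r part E hr hP hdeg
    exact six_tau_le hr hP hdeg

end Vale.Agent.Results.P045.LocallySparse
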