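import Vale.Agent.Results.P045.DegreeCondition
import Vale.Agent.Results.P045.LocallySparse

namespace Vale.Agent.Results.P045.AllParts

open Vale.Agent.Results.P045.LocallySparse

/-- Conjunction of the two hand-ins `LocallySparse` (parts 1 to 5) and `DegreeCondition`
(parts 6 and 7, in the encoding of edges as functions `Fin r → α`). -/
theorem result :
    (∀ (V : Type) [DecidableEq V] (r : ℕ) (part : V → Fin r) (E : Finset (Finset V)),
      2 ≤ r → IsPartite r part E → (∀ e ∈ E, (meets E e).card ≤ 2 * r - 4) →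
      tau E ≤ (r - 1) * nu E) ∧
    (∀ (V : Type) [DecidableEq V] (r : ℕ) (part : V → Fin r) (E : Finset (Finset V)),
      4 ≤ r → IsPartite r part E → (∀ v : V, (E.filter (fun e => v ∈ e)).card ≤ 2) →
      tau E ≤ (r - 1) * nu E) ∧
    (∀ (V : Type) [DecidableEq V] (r : ℕ) (part : V → Fin r) (E : Finset (Finset V)),
      12 ≤ r → IsPartite r part E → (∀ v : V, (E.filter (fun e => v ∈ e)).card ≤ 3) →
      tau E ≤ (r - 1) * nu E) ∧
    (∀ (V : Type) [DecidableEq V] (r t : ℕ) (part : V → Fin r) (E : Finset (Finset V)),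
      1 ≤ r → IsPartite r part E → (∀ e ∈ E, (meets E e).card ≤ t) →
      2 * tau E ≤ (t + 2) * nu E) ∧
    (∀ (V : Type) [DecidableEq V] (r : ℕ) (part : V → Fin r) (E : Finset (Finset V)),
      1 ≤ r → IsPartite r part E → (∀ v : V, (E.filter (fun e => v ∈ e)).card ≤ 3) →
      6 * tau E ≤ (5 * r + 6) * nu E) ∧
    (∀ (r : ℕ) (α : Type) [DecidableEq α] (E : Finset (Fin r → α)) (D δ : ℕ) (i0 : Fin r),
      2 ≤ r →
      (∀ e ∈ E, ∀ i, (E.filter (fun f => f i = e i)).card ≤ D) →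
      (∀ e ∈ E, δ ≤ (E.filter (fun f => f i0 = e i0)).card) →
      r * (D - 1) + 1 ≤ (r - 1) * δ →
      ∃ C : Finset (Fin r × α), ∃ M ⊆ E, (∀ e ∈ M, ∀ f ∈ M, e ≠ f → ∀ i, e i ≠ f i) ∧
        (∀ e ∈ E, ∃ i, (i, e i) ∈ C) ∧ C.card ≤ (r - 1) * M.card) ∧
    (∀ (r : ℕ) (α : Type) [DecidableEq α] (E : Finset (Fin r → α)) (d : ℕ),
      2 ≤ r → 1 ≤ d → d ≤ r - 1 →
      (∀ e ∈ E, ∀ i, (E.filter (fun f => f i = e i)).card = d) →
      ∃ C : Finset (Fin r × α), ∃ M ⊆ E, (∀ e ∈ M, ∀ f ∈ M, e ≠ f → ∀ i, e i ≠ f i) ∧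
        (∀ e ∈ E, ∃ i, (i, e i) ∈ C) ∧ C.card ≤ (r - 1) * M.card) := by
  obtain ⟨h1, h2, h3, h4, h5⟩ := Vale.Agent.Results.P045.LocallySparse.result
  refine ⟨h1, h2, h3, h4, h5, ?_, ?_⟩
  · intro r α _ E D δ i0 hr
    exact (Vale.Agent.Results.P045.DegreeCondition.result hr E).1 D δ i0
  · intro r α _ E d hr
    exact (Vale.Agent.Results.P045.DegreeCondition.result hr E).2 d

end Vale.Agent.Results.P045.AllParts
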