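import Vale.Agent.P045.Degree

namespace Vale.Agent.Results.P045.DegreeCondition

/-- Ryser's inequality under a degree condition.
An `r`-partite `r`-uniform hypergraph is a finite set `E` of functions `e : Fin r → α`; the edge `e`
is the vertex set `{(i, e i)}`, and the `i`-th part consists of the vertices `(i, x)`.
The degree of the vertex `(i, e i)` is the number of `f ∈ E` with `f i = e i`.
(1) If all degrees are at most `D`, all vertices of one part `i0` that lie in an edge have degree at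
least `δ`, and `r (D - 1) + 1 ≤ (r - 1) δ`, then there are a vertex cover `C` and a matching `M`
with `|C| ≤ (r - 1) |M|`.
(2) In particular this holds if every vertex that lies in an edge has degree exactly `d ≤ r - 1`. -/
theorem result {r : ℕ} {α : Type*} [DecidableEq α] (hr : 2 ≤ r) (E : Finset (Fin r → α)) :
    (∀ (D δ : ℕ) (i0 : Fin r),
      (∀ e ∈ E, ∀ i, (E.filter (fun f => f i = e i)).card ≤ D) →
      (∀ e ∈ E, δ ≤ (E.filter (fun f => f i0 = e i0)).card) →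
      r * (D - 1) + 1 ≤ (r - 1) * δ →
      ∃ C : Finset (Fin r × α), ∃ M ⊆ E, (∀ e ∈ M, ∀ f ∈ M, e ≠ f → ∀ i, e i ≠ f i) ∧
        (∀ e ∈ E, ∃ i, (i, e i) ∈ C) ∧ C.card ≤ (r - 1) * M.card) ∧
    (∀ d : ℕ, 1 ≤ d → d ≤ r - 1 →
      (∀ e ∈ E, ∀ i, (E.filter (fun f => f i = e i)).card = d) →
      ∃ C : Finset (Fin r × α), ∃ M ⊆ E, (∀ e ∈ M, ∀ f ∈ M, e ≠ f → ∀ i, e i ≠ f i) ∧
        (∀ e ∈ E, ∃ i, (i, e i) ∈ C) ∧ C.card ≤ (r - 1) * M.card) := by
  have h1 : ∀ (D δ : ℕ) (i0 : Fin r),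
      (∀ e ∈ E, ∀ i, (E.filter (fun f => f i = e i)).card ≤ D) →
      (∀ e ∈ E, δ ≤ (E.filter (fun f => f i0 = e i0)).card) →
      r * (D - 1) + 1 ≤ (r - 1) * δ →
      ∃ C : Finset (Fin r × α), ∃ M ⊆ E, (∀ e ∈ M, ∀ f ∈ M, e ≠ f → ∀ i, e i ≠ f i) ∧
        (∀ e ∈ E, ∃ i, (i, e i) ∈ C) ∧ C.card ≤ (r - 1) * M.card :=
    fun D δ i0 hD hδ hc => Vale.Agent.P045.ryser_degree (by omega) E D δ i0 hD hδ hc
  refine ⟨h1, ?_⟩
  intro d hd1 hdr hreg
  refine h1 d d ⟨0, by omega⟩ (fun e he i => le_of_eq (hreg e he i))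
    (fun e he => le_of_eq (hreg e he _).symm) ?_
  obtain ⟨d', rfl⟩ : ∃ d', d = d' + 1 := ⟨d - 1, by omega⟩
  obtain ⟨r', rfl⟩ : ∃ r', r = r' + 1 := ⟨r - 1, by omega⟩
  simp only [Nat.add_sub_cancel] at hdr ⊢
  nlinarith

end Vale.Agent.Results.P045.DegreeCondition
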